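import Vale.Agent.Lib.P254.Sec.FinalSec

namespace Vale.Agent.Results.P254.Dim3Unconditional

open Vale.Agent.Lib.P254

/-- **Strong isotropic constant inequality for unconditional convex bodies in `ℝ³`.**
Let `K ⊆ ℝ³` be a convex body (compact, convex, nonempty interior) that is invariant under the
change of sign of each single coordinate; no symmetry between different coordinates is assumed.
Then `L_K < L_T` for every tetrahedron `T` (the convex hull of four affinely independent
points). -/
theorem result (K : Set (Fin 3 → ℝ)) (hK : IsCompact K) (hc : Convex ℝ K)
    (hi : (interior K).Nonempty)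
    (hsign : ∀ i : Fin 3, ∀ x ∈ K, Function.update x i (-(x i)) ∈ K)
    (T : Fin 4 → Fin 3 → ℝ) (hT : AffineIndependent ℝ T) :
    isotropicConstant K < isotropicConstant (convexHull ℝ (Set.range T)) :=
  (sec3_isotropic_lt K hK hc hi hsign T hT).1

end Vale.Agent.Results.P254.Dim3Unconditional
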