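import Vale.Agent.Lib.P254.Final

namespace Vale.Agent.Results.P254.FewVertices

open Vale.Agent.Lib.P254

/-- The strong isotropic constant conjecture, with its equality case, for convex polytopes
with at most `n+2` vertices in `ℝ^n`: if `K` is the convex hull of `n+2` points and has nonempty
interior, then `L_K ≤ L_T` for every `n`-simplex `T`, with equality if and only if `K` is
itself an `n`-simplex. -/
theorem result {n : ℕ} (v : Fin (n+2) → Fin n → ℝ)
    (hv : (interior (convexHull ℝ (Set.range v))).Nonempty)
    (T : Fin (n+1) → Fin n → ℝ) (hT : AffineIndependent ℝ T) :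
    isotropicConstant (convexHull ℝ (Set.range v)) ≤
      isotropicConstant (convexHull ℝ (Set.range T)) ∧
    (isotropicConstant (convexHull ℝ (Set.range v)) =
        isotropicConstant (convexHull ℝ (Set.range T)) ↔
      ∃ T' : Fin (n+1) → Fin n → ℝ, AffineIndependent ℝ T' ∧
        convexHull ℝ (Set.range v) = convexHull ℝ (Set.range T')) :=
  isotropic_few_vertices v hv T hT

end Vale.Agent.Results.P254.FewVertices
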