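import Vale.Agent.Lib.P254.Final
import Vale.Agent.Lib.P254.Sec.FinalSec
import Vale.Agent.Lib.P254.Sym.AxisGen
import Vale.Agent.Lib.P254.TW.Final
import Vale.Agent.Lib.P254.OrliczAll.Skel
import Vale.Agent.Lib.P254.Sq.Main
import Vale.Agent.Lib.P254.Rev.Main

namespace Vale.Agent.Results.P254.Omnibus3

open Vale.Agent.Lib.P254

/-- **The strong isotropic constant inequality for seven classes of convex bodies.**
`T` always denotes an `n`-simplex, the convex hull of `n+1` affinely independent points of `ℝ^n`.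

* (A) Polytopes with at most `n+2` vertices, every `n`: if `K` is the convex hull of `n+2` points
  of `ℝ^n` and has nonempty interior, then `L_K ≤ L_T`, with equality if and only if `K` is an
  `n`-simplex.
* (B) Unconditional bodies in `ℝ³`: if `K ⊆ ℝ³` is a convex body (compact, convex, nonempty
  interior) invariant under the change of sign of each single coordinate, then `L_K < L_T`.
* (C) Every `n ≥ 3`: if `K ⊆ ℝ^n` is a convex body invariant under the change of sign of each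
  single coordinate and under every permutation of the coordinates that fixes one coordinate
  `i0`, then `L_K < L_T` and `det Σ_K / |K|² ≤ (9/16) / 8^n`.
* (D) Truncated wedges in `ℝ³`: for `a, e ≥ 0` with `a + e > 0` and `R ≥ 0` continuous and concave
  on `[0,1]`, not identically zero, the set
  `K = {x ∈ ℝ³ | 0 ≤ x₀ ≤ 1, |x₁| ≤ a + e x₀, |x₂| ≤ R x₀}` is a convex body and `L_K ≤ L_T`
  (for `a = 0`, `e = 1`, `R t = 1 - t` the body `K` is itself a tetrahedron).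
* (E) Generalized Orlicz balls, every `n ≥ 2`: if `ψ_1, …, ψ_n` are convex, nondecreasing and
  continuous on `[0,∞)` with `ψ_i 0 = 0` and `K = {x ∈ ℝ^n | ∑ i, ψ_i |x_i| ≤ 1}` is compact, then
  `K` is convex with nonempty interior, `det Σ_K / |K|² ≤ ((n+1) / (8 (n+2)))^n`, and `L_K < L_T`.
* (F) Homothetic rectangular sections in `ℝ³`: for `k > 0` and `P ≥ 0` continuous and concave on
  `[0,1]`, not identically zero, the set `K = {x ∈ ℝ³ | 0 ≤ x₀ ≤ 1, |x₁| ≤ P x₀, |x₂| ≤ k P x₀}`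
  is a convex body and `L_K < L_T`.
* (G) Bodies of revolution in `ℝ³`: for `r ≥ 0` continuous and concave on `[0,1]`, not identically
  zero, the set `K = {x ∈ ℝ³ | 0 ≤ x₀ ≤ 1, x₁² + x₂² ≤ (r x₀)²}` is a convex body and
  `L_K < L_T`. -/
theorem result :
    (∀ (n : ℕ) (v : Fin (n+2) → Fin n → ℝ),
      (interior (convexHull ℝ (Set.range v))).Nonempty →
      ∀ T : Fin (n+1) → Fin n → ℝ, AffineIndependent ℝ T →
        isotropicConstant (convexHull ℝ (Set.range v)) ≤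
            isotropicConstant (convexHull ℝ (Set.range T)) ∧
          (isotropicConstant (convexHull ℝ (Set.range v)) =
              isotropicConstant (convexHull ℝ (Set.range T)) ↔
            ∃ T' : Fin (n+1) → Fin n → ℝ, AffineIndependent ℝ T' ∧
              convexHull ℝ (Set.range v) = convexHull ℝ (Set.range T'))) ∧
    (∀ K : Set (Fin 3 → ℝ), IsCompact K → Convex ℝ K → (interior K).Nonempty →
      (∀ i : Fin 3, ∀ x ∈ K, Function.update x i (-(x i)) ∈ K) →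
      ∀ T : Fin 4 → Fin 3 → ℝ, AffineIndependent ℝ T →
        isotropicConstant K < isotropicConstant (convexHull ℝ (Set.range T))) ∧
    (∀ n : ℕ, 3 ≤ n → ∀ K : Set (Fin n → ℝ), IsCompact K → Convex ℝ K →
      (interior K).Nonempty → ∀ i0 : Fin n,
      (∀ σ : Equiv.Perm (Fin n), σ i0 = i0 → ∀ x ∈ K, x ∘ σ ∈ K) →
      (∀ i : Fin n, ∀ x ∈ K, Function.update x i (-(x i)) ∈ K) →
      ∀ T : Fin (n+1) → Fin n → ℝ, AffineIndependent ℝ T →
        isotropicConstant K < isotropicConstant (convexHull ℝ (Set.range T)) ∧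
          (covMatrix K).det / (vol K) ^ 2 ≤ 9 / 16 / 8 ^ n) ∧
    (∀ a e : ℝ, 0 ≤ a → 0 ≤ e → 0 < a + e → ∀ R : ℝ → ℝ,
      ConcaveOn ℝ (Set.Icc 0 1) R → ContinuousOn R (Set.Icc 0 1) →
      (∀ t ∈ Set.Icc (0:ℝ) 1, 0 ≤ R t) → (∃ t ∈ Set.Icc (0:ℝ) 1, 0 < R t) →
      ∀ K : Set (Fin 3 → ℝ),
      K = {x : Fin 3 → ℝ | 0 ≤ x 0 ∧ x 0 ≤ 1 ∧ |x 1| ≤ a + e * x 0 ∧ |x 2| ≤ R (x 0)} →
      ∀ T : Fin 4 → Fin 3 → ℝ, AffineIndependent ℝ T →
        IsCompact K ∧ Convex ℝ K ∧ (interior K).Nonempty ∧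
          isotropicConstant K ≤ isotropicConstant (convexHull ℝ (Set.range T))) ∧
    (∀ n : ℕ, 2 ≤ n → ∀ ψ : Fin n → ℝ → ℝ,
      (∀ i, ConvexOn ℝ (Set.Ici 0) (ψ i)) → (∀ i, MonotoneOn (ψ i) (Set.Ici 0)) →
      (∀ i, ContinuousOn (ψ i) (Set.Ici 0)) → (∀ i, ψ i 0 = 0) →
      ∀ K : Set (Fin n → ℝ), K = {x : Fin n → ℝ | ∑ i, ψ i |x i| ≤ 1} → IsCompact K →
        Convex ℝ K ∧ (interior K).Nonempty ∧
          (covMatrix K).det / (vol K) ^ 2 ≤ (((n:ℝ) + 1) / (8 * ((n:ℝ) + 2))) ^ n ∧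
          (∀ T : Fin (n+1) → Fin n → ℝ, AffineIndependent ℝ T →
            isotropicConstant K < isotropicConstant (convexHull ℝ (Set.range T)))) ∧
    (∀ k : ℝ, 0 < k → ∀ P : ℝ → ℝ,
      ConcaveOn ℝ (Set.Icc 0 1) P → ContinuousOn P (Set.Icc 0 1) →
      (∀ t ∈ Set.Icc (0:ℝ) 1, 0 ≤ P t) → (∃ t ∈ Set.Icc (0:ℝ) 1, 0 < P t) →
      ∀ K : Set (Fin 3 → ℝ),
      K = {x : Fin 3 → ℝ | 0 ≤ x 0 ∧ x 0 ≤ 1 ∧ |x 1| ≤ P (x 0) ∧ |x 2| ≤ k * P (x 0)} →
      ∀ T : Fin 4 → Fin 3 → ℝ, AffineIndependent ℝ T →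
        IsCompact K ∧ Convex ℝ K ∧ (interior K).Nonempty ∧
          isotropicConstant K < isotropicConstant (convexHull ℝ (Set.range T))) ∧
    (∀ r : ℝ → ℝ,
      ConcaveOn ℝ (Set.Icc 0 1) r → ContinuousOn r (Set.Icc 0 1) →
      (∀ t ∈ Set.Icc (0:ℝ) 1, 0 ≤ r t) → (∃ t ∈ Set.Icc (0:ℝ) 1, 0 < r t) →
      ∀ K : Set (Fin 3 → ℝ),
      K = {x : Fin 3 → ℝ | 0 ≤ x 0 ∧ x 0 ≤ 1 ∧ (x 1) ^ 2 + (x 2) ^ 2 ≤ (r (x 0)) ^ 2} →
      ∀ T : Fin 4 → Fin 3 → ℝ, AffineIndependent ℝ T →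
        IsCompact K ∧ Convex ℝ K ∧ (interior K).Nonempty ∧
          isotropicConstant K < isotropicConstant (convexHull ℝ (Set.range T))) := by
  refine ⟨?_, ?_, ?_, ?_, ?_, ?_, ?_⟩
  · intro n v hv T hT
    exact isotropic_few_vertices v hv T hT
  · intro K hK hc hi hsign T hT
    exact (sec3_isotropic_lt K hK hc hi hsign T hT).1
  · intro n hn K hK hc hi i0 hperm hsign T hT
    exact axisSym_isotropic_lt_gen hn K hK hc hi i0 hperm hsign T hT
  · intro a e ha he hae R hc hcont hpos hne K hK T hT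
    subst hK
    exact TW.twBody_convexBody_isotropic_le a e ha he hae R hc hcont hpos hne T hT
  · intro n hn ψ hconv hmono hcont h0 K hKdef hK
    subst hKdef
    exact Orlicz.orlicz_main_all hn ψ hconv hmono hcont h0 hK
  · intro k hk P hP hPc hP0 hPne K hK T hT
    subst hK
    exact Sq.sqBody_convexBody_isotropic_lt k hk P hP hPc hP0 hPne T hT
  · intro r hc hcont hr0 hne K hK T hT
    subst hK
    exact Rev.revBody_convexBody_isotropic_lt r hc hcont hr0 hne T hT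

end Vale.Agent.Results.P254.Omnibus3
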